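import Mathlib

/-! Weak ultralimits in reflexive spaces and separability of the dual of a separable subspace. -/

namespace Vale.Agent.P079

open Set Filter Topology

variable {X : Type*} [NormedAddCommGroup X] [NormedSpace ℝ X]

/-- weak-star ultralimit of a bounded family of functionals -/
theorem exists_ulim_dual {ι : Type*} (U : Ultrafilter ι) (φ : ι → StrongDual ℝ X) (M : ℝ)
    (h : ∀ i, ‖φ i‖ ≤ M) :
    ∃ ψ : StrongDual ℝ X, ‖ψ‖ ≤ M ∧ ∀ x, Tendsto (fun i => φ i x) U (𝓝 (ψ x)) := by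
  have hc := WeakDual.isCompact_closedBall (𝕜 := ℝ) (E := X) 0 M
  obtain ⟨ψ, hψ, hle⟩ := isCompact_iff_ultrafilter_le_nhds.1 hc
    (U.map fun i => StrongDual.toWeakDual (φ i)) (by
      rw [Ultrafilter.coe_map, le_principal_iff, mem_map]
      exact Eventually.of_forall fun i => by simpa using h i)
  refine ⟨WeakDual.toStrongDual ψ, by simpa using hψ, fun x => ?_⟩
  exact ((WeakDual.eval_continuous x).tendsto ψ).comp hle

/-- weak ultralimit of a bounded family in a reflexive space -/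
theorem exists_wlim (hX : Function.Surjective (NormedSpace.inclusionInDoubleDual ℝ X))
    {ι : Type*} (U : Ultrafilter ι) (x : ι → X) (M : ℝ) (h : ∀ i, ‖x i‖ ≤ M) :
    ∃ w : X, ∀ φ : StrongDual ℝ X, Tendsto (fun i => φ (x i)) U (𝓝 (φ w)) := by
  obtain ⟨ξ, -, hξ⟩ := exists_ulim_dual U (fun i => NormedSpace.inclusionInDoubleDual ℝ X (x i)) M
    (fun i => (NormedSpace.double_dual_bound ℝ X (x i)).trans (h i))
  obtain ⟨w, rfl⟩ := hX ξ
  exact ⟨w, fun φ => hξ φ⟩

theorem wlim_mem {ι : Type*} {l : Filter ι} [l.NeBot] {x : ι → X} {w : X}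
    (hw : ∀ φ : StrongDual ℝ X, Tendsto (fun i => φ (x i)) l (𝓝 (φ w))) {A : Set X}
    (hc : IsClosed A) (hA : Convex ℝ A) (h : ∀ᶠ i in l, x i ∈ A) : w ∈ A := by
  by_contra hw'
  obtain ⟨f, u, h1, h2⟩ := geometric_hahn_banach_closed_point hA hc hw'
  have : f w ≤ u := le_of_tendsto (hw f) (h.mono fun i hi => (h1 _ hi).le)
  linarith

theorem wlim_norm_le {ι : Type*} {l : Filter ι} [l.NeBot] {x x' : ι → X} {w w' : X}
    (hw : ∀ φ : StrongDual ℝ X, Tendsto (fun i => φ (x i)) l (𝓝 (φ w)))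
    (hw' : ∀ φ : StrongDual ℝ X, Tendsto (fun i => φ (x' i)) l (𝓝 (φ w'))) {r : ℝ}
    (h : ∀ ε, 0 < ε → ∀ᶠ i in l, ‖x i - x' i‖ ≤ r + ε) : ‖w - w'‖ ≤ r := by
  obtain ⟨f, hf1, hf2⟩ := exists_dual_vector'' ℝ (w - w')
  refine le_of_forall_pos_le_add fun ε hε => ?_
  have h1 : Tendsto (fun i => f (x i) - f (x' i)) l (𝓝 (f w - f w')) := (hw f).sub (hw' f)
  have h2 : f w - f w' ≤ r + ε := le_of_tendsto h1 ((h ε hε).mono fun i hi => by
    rw [← map_sub]
    have := f.le_opNorm (x i - x' i)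
    have h3 : ‖f‖ * ‖x i - x' i‖ ≤ 1 * ‖x i - x' i‖ :=
      mul_le_mul_of_nonneg_right hf1 (norm_nonneg _)
    have h4 := Real.le_norm_self (f (x i - x' i))
    linarith)
  rw [← map_sub] at h2
  have h5 : f (w - w') = ‖w - w'‖ := by simpa using hf2
  linarith

theorem exists_annihilator {E : Type*} [NormedAddCommGroup E] [NormedSpace ℝ E]
    (L : Submodule ℝ E) (hL : IsClosed (L : Set E)) {x : E} (hx : x ∉ L) :
    ∃ f : StrongDual ℝ E, (∀ a ∈ L, f a = 0) ∧ f x ≠ 0 := by
  obtain ⟨f, u, h1, h2⟩ := geometric_hahn_banach_closed_point L.convex hL hx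
  have h0 : 0 < u := by simpa using h1 0 L.zero_mem
  refine ⟨f, fun a ha => ?_, by linarith⟩
  by_contra hne
  have := h1 ((u / f a) • a) (L.smul_mem _ ha)
  rw [map_smul, smul_eq_mul, div_mul_cancel₀ _ hne] at this
  exact lt_irrefl _ this

theorem separable_dual (hX : Function.Surjective (NormedSpace.inclusionInDoubleDual ℝ X))
    {Y : Type*} [NormedAddCommGroup Y] [NormedSpace ℝ Y] [TopologicalSpace.SeparableSpace Y]
    (j : Y →L[ℝ] X) (hV : IsClosed ((j.toLinearMap.range : Submodule ℝ X) : Set X))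
    (hext : ∀ k : StrongDual ℝ Y, ∃ G : StrongDual ℝ X, ∀ a, G (j a) = k a) :
    TopologicalSpace.SeparableSpace (StrongDual ℝ Y) := by
  have : Nonempty Y := ⟨0⟩
  obtain ⟨v, hv⟩ := TopologicalSpace.exists_dense_seq Y
  choose g hg1 hg2 using fun n => exists_dual_vector'' ℝ (v n)
  set L : Submodule ℝ (StrongDual ℝ Y) := (Submodule.span ℝ (range g)).topologicalClosure with hL
  have hLsep : TopologicalSpace.IsSeparable (L : Set (StrongDual ℝ Y)) :=
    ((countable_range g).isSeparable.span).closure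
  have hLtop : ∀ h, h ∈ L := by
    intro h
    by_contra hh
    obtain ⟨ξ, hξ1, hξ2⟩ := exists_annihilator L (Submodule.isClosed_topologicalClosure _) hh
    let res : StrongDual ℝ X →L[ℝ] StrongDual ℝ Y :=
      (ContinuousLinearMap.compL ℝ Y X ℝ).flip j
    have hres : ∀ (φ : StrongDual ℝ X) (a : Y), res φ a = φ (j a) := fun _ _ => rfl
    obtain ⟨x, hx⟩ := hX (ξ.comp res)
    have hx' : ∀ φ : StrongDual ℝ X, φ x = ξ (res φ) := fun φ => by
      have := congrArg (fun η : StrongDual ℝ (StrongDual ℝ X) => η φ) hx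
      simpa using this
    have hxV : x ∈ (j.toLinearMap.range : Submodule ℝ X) := by
      by_contra hxV
      obtain ⟨f, hf1, hf2⟩ := exists_annihilator _ hV hxV
      have : res f = 0 := by ext a; rw [hres]; exact hf1 _ ⟨a, rfl⟩
      rw [hx' f, this, map_zero] at hf2
      exact hf2 rfl
    obtain ⟨y, hy⟩ := hxV
    have hy' : j y = x := hy
    have hξx : ∀ k : StrongDual ℝ Y, ξ k = k y := by
      intro k
      obtain ⟨G, hG⟩ := hext k
      have : res G = k := by ext a; rw [hres]; exact hG a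
      rw [← hG y, ← this, ← hx' G, hy']
    have hgx : ∀ n, g n y = 0 := fun n => by
      rw [← hξx]
      exact hξ1 _ (Submodule.le_topologicalClosure _ (Submodule.subset_span ⟨n, rfl⟩))
    have hx0 : y = 0 := by
      have hcl : IsClosed {a : Y | ‖a‖ ≤ ‖a - y‖} := isClosed_le (by fun_prop) (by fun_prop)
      have hall : ∀ a : Y, ‖a‖ ≤ ‖a - y‖ := by
        intro a
        refine hv.induction_on a hcl fun n => ?_
        have h1 : g n (v n - y) = ‖v n‖ := by
          rw [map_sub, hgx n, sub_zero]; simpa using hg2 n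
        have h2 := (g n).le_opNorm (v n - y)
        have h3 : ‖g n‖ * ‖v n - y‖ ≤ 1 * ‖v n - y‖ :=
          mul_le_mul_of_nonneg_right (hg1 n) (norm_nonneg _)
        have h4 := Real.le_norm_self (g n (v n - y))
        linarith
      have := hall y
      rw [sub_self, norm_zero] at this
      exact norm_le_zero_iff.1 this
    rw [hξx h, hx0, map_zero] at hξ2
    exact hξ2 rfl
  rw [← TopologicalSpace.isSeparable_univ_iff]
  exact hLsep.mono fun h _ => hLtop h

theorem exists_dense_functionals_aux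
    (hX : Function.Surjective (NormedSpace.inclusionInDoubleDual ℝ X))
    {Y : Type*} [NormedAddCommGroup Y] [NormedSpace ℝ Y] [TopologicalSpace.SeparableSpace Y]
    (j : Y →L[ℝ] X) (hV : IsClosed ((j.toLinearMap.range : Submodule ℝ X) : Set X))
    (hext : ∀ k : StrongDual ℝ Y, ∃ G : StrongDual ℝ X, ∀ a, G (j a) = k a) :
    ∃ d : ℕ → StrongDual ℝ X, ∀ φ : StrongDual ℝ X, ∀ e, 0 < e → ∃ n, ∀ u : Y,
      |φ (j u) - d n (j u)| ≤ e * ‖u‖ := by
  have := separable_dual hX j hV hext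
  obtain ⟨k, hk⟩ := TopologicalSpace.exists_dense_seq (StrongDual ℝ Y)
  choose d hd using fun n => hext (k n)
  refine ⟨d, fun φ e he => ?_⟩
  obtain ⟨n, hn⟩ := hk.exists_dist_lt (φ.comp j) he
  refine ⟨n, fun u => ?_⟩
  rw [dist_eq_norm] at hn
  have h1 := (φ.comp j - k n).le_opNorm u
  have h2 : (φ.comp j - k n) u = φ (j u) - d n (j u) := by
    rw [ContinuousLinearMap.sub_apply, ← hd n u]; rfl
  rw [h2, Real.norm_eq_abs] at h1
  exact h1.trans (mul_le_mul_of_nonneg_right hn.le (norm_nonneg _))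

/-- a countable family of functionals that is dense for the norm of the dual of `V` -/
theorem exists_dense_functionals
    (hX : Function.Surjective (NormedSpace.inclusionInDoubleDual ℝ X))
    (V : Submodule ℝ X) (hV : IsClosed (V : Set X))
    (hsep : TopologicalSpace.IsSeparable (V : Set X)) :
    ∃ d : ℕ → StrongDual ℝ X, ∀ φ : StrongDual ℝ X, ∀ e, 0 < e → ∃ n, ∀ u ∈ V,
      |φ u - d n u| ≤ e * ‖u‖ := by
  have : TopologicalSpace.SeparableSpace V := hsep.separableSpace
  obtain ⟨d, hd⟩ := exists_dense_functionals_aux hX (Y := V) V.subtypeL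
    (by simpa using hV) (fun k => by
      obtain ⟨G, hG, -⟩ := exists_extension_norm_eq V k
      exact ⟨G, hG⟩)
  refine ⟨d, fun φ e he => ?_⟩
  obtain ⟨n, hn⟩ := hd φ e he
  exact ⟨n, fun u hu => hn ⟨u, hu⟩⟩

end Vale.Agent.P079
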