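import Vale.Agent.P079.Game
import Vale.Agent.P079.Weak

/-! The abstract contradiction: a budget system in a reflexive space cannot exist. -/

namespace Vale.Agent.P079

open Set Filter Topology

variable {X : Type*} [NormedAddCommGroup X] [NormedSpace ℝ X]

omit [NormedSpace ℝ X] in
/-- fragmentation of weak-star compact sets of functionals by a seminorm with separable range -/
theorem frag {Ψ : Type*} [TopologicalSpace Ψ] [CompactSpace Ψ] [T2Space Ψ]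
    (ev : Ψ → X → ℝ) (hev : ∀ u, Continuous fun φ => ev φ u) (V : Set X) (e : ℝ)
    (d : ℕ → X → ℝ) (hd : ∀ φ, ∃ n, ∀ u ∈ V, |ev φ u - d n u| ≤ e / 2 * ‖u‖)
    (D : Set Ψ) (hD : IsClosed D) (hne : D.Nonempty) :
    ∃ W : Set Ψ, IsOpen W ∧ ∃ φ₀ ∈ W ∩ D, ∀ φ ∈ W ∩ D, ∀ u ∈ V,
      ev φ u - ev φ₀ u ≤ e * ‖u‖ := by
  have : CompactSpace D := isCompact_iff_compactSpace.1 hD.isCompact
  have : Nonempty D := hne.to_subtype
  let A : ℕ → Set D := fun n => {φ | ∀ u ∈ V, |ev φ u - d n u| ≤ e / 2 * ‖u‖}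
  have hA : ∀ n, IsClosed (A n) := by
    intro n
    have : A n = ⋂ u ∈ V, {φ : D | |ev φ u - d n u| ≤ e / 2 * ‖u‖} := by
      ext φ; simp [A]
    rw [this]
    refine isClosed_biInter fun u _ => isClosed_le ?_ continuous_const
    exact (((hev u).comp continuous_subtype_val).sub continuous_const).abs
  have hU : ⋃ n, A n = univ := by
    refine eq_univ_of_forall fun φ => ?_
    obtain ⟨n, hn⟩ := hd φ
    exact mem_iUnion.2 ⟨n, hn⟩
  obtain ⟨n, φ₀, hφ₀⟩ := nonempty_interior_of_iUnion_of_closed hA hU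
  obtain ⟨O, hOA, hO, hφO⟩ := mem_interior.1 hφ₀
  obtain ⟨W, hW, rfl⟩ := isOpen_induced_iff.1 hO
  refine ⟨W, hW, φ₀, ⟨hφO, φ₀.2⟩, fun φ hφ u hu => ?_⟩
  have h1 := hOA (a := ⟨φ, hφ.2⟩) hφ.1 u hu
  have h2 := hOA hφO u hu
  rw [abs_le] at h1 h2
  have h3 := h1.2
  have h4 := h2.1
  simp only at h3 h4
  linarith

theorem exists_pos_le_list {α : Type*} (U : List α) (f : α → ℝ) (h : ∀ t ∈ U, 0 < f t) :
    ∃ ε, 0 < ε ∧ ∀ t ∈ U, ε ≤ f t := by
  induction U with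
  | nil => exact ⟨1, one_pos, by simp⟩
  | cons a U ih =>
    obtain ⟨ε, hε, h2⟩ := ih fun t ht => h t (List.mem_cons_of_mem _ ht)
    refine ⟨min ε (f a), lt_min hε (h a List.mem_cons_self), fun t ht => ?_⟩
    rcases List.mem_cons.1 ht with rfl | ht
    · exact min_le_right _ _
    · exact (min_le_left _ _).trans (h2 t ht)

theorem apply_le_norm {φ : StrongDual ℝ X} (h : ‖φ‖ ≤ 1) (u : X) : |φ u| ≤ ‖u‖ := by
  have h1 := φ.le_opNorm u
  have h2 : ‖φ‖ * ‖u‖ ≤ 1 * ‖u‖ := mul_le_mul_of_nonneg_right h (norm_nonneg _)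
  rw [Real.norm_eq_abs] at h1
  linarith

section Step

variable {S : Type*} [Preorder S] (β : S → ℝ) (Z : S → X)

/-- persistence: from some state, every move of a given mass raises `h` at rate at most `κ` -/
def Pers (h : S → ℝ) (κ : ℝ) : Prop :=
  ∃ σ s, 0 < s ∧ s < β σ ∧ ∀ σ', σ ≤ σ' → β σ' = β σ - s → h σ' - h σ ≤ κ * s

theorem step_lemma (V : Set X) (hV : ∀ σ σ', Z σ' - Z σ ∈ V)
    (d : ℕ → StrongDual ℝ X)
    (hd : ∀ φ : StrongDual ℝ X, ∀ e, 0 < e → ∃ n, ∀ u ∈ V, |φ u - d n u| ≤ e * ‖u‖)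
    (hE : ∀ σ s, 0 < s → s < β σ → ∃ σ', σ ≤ σ' ∧ β σ' = β σ - s)
    (hE2 : ∀ σ σ', σ ≤ σ' → ‖Z σ' - Z σ‖ ≤ β σ - β σ')
    (hE3 : ∀ σ (G : List (S × S)) ε, 0 < ε → ∃ σ₀, σ ≤ σ₀ ∧ β σ₀ = β σ ∧ ∀ σ', σ₀ ≤ σ' →
      ∃ ψ : StrongDual ℝ X, ‖ψ‖ ≤ 1 ∧ (∀ t ∈ G, ψ (Z t.1 - Z t.2) ≤ ε) ∧
        β σ - β σ' - ε ≤ ψ (Z σ' - Z σ))
    (h : S → ℝ) (C : ℝ)
    (hh : ∀ σ σ', σ ≤ σ' → 0 ≤ h σ' - h σ ∧ h σ' - h σ ≤ C * (β σ - β σ'))
    (κ κ' : ℝ) (hκ0 : 0 ≤ κ) (hκ : κ < κ') (hP : Pers β h κ)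
    (U : List ((S × S) × ℝ)) (hU : ∀ t ∈ U, 0 < t.2) :
    ∃ φ : StrongDual ℝ X, ‖φ‖ ≤ 1 ∧ (∀ t ∈ U, φ (Z t.1.1 - Z t.1.2) ≤ t.2) ∧
      Pers β (fun σ => h σ + (-β σ - φ (Z σ))) κ' := by
  classical
  by_contra hcon
  push Not at hcon
  set P : Set (WeakDual ℝ X) := (WeakDual.toStrongDual ⁻¹' Metric.closedBall 0 1) ∩
    {φ | ∀ t ∈ U, φ (Z t.1.1 - Z t.1.2) ≤ t.2} with hPdef
  have hPc : IsCompact P := by
    refine (WeakDual.isCompact_closedBall (𝕜 := ℝ) (E := X) 0 1).inter_right ?_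
    have : {φ : WeakDual ℝ X | ∀ t ∈ U, φ (Z t.1.1 - Z t.1.2) ≤ t.2}
        = ⋂ t ∈ {t | t ∈ U}, {φ : WeakDual ℝ X | φ (Z t.1.1 - Z t.1.2) ≤ t.2} := by
      ext φ; simp
    rw [this]
    exact isClosed_biInter fun t _ => isClosed_le (WeakDual.eval_continuous _) continuous_const
  have : CompactSpace P := isCompact_iff_compactSpace.1 hPc
  have hnorm : ∀ φ : P, ‖WeakDual.toStrongDual φ.1‖ ≤ 1 := fun φ => by simpa using φ.2.1
  set e : ℝ := (κ' - κ) / 4 with he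
  have he0 : 0 < e := by rw [he]; linarith
  obtain ⟨σ, s, hs, hsb, hσ⟩ := hP
  obtain ⟨ε₀, hε₀, hε₀U⟩ := exists_pos_le_list U (fun t => t.2) hU
  obtain ⟨σ₀, h1, h2, h3⟩ := hE3 σ (U.map fun t => t.1) (min ε₀ (e * s))
    (lt_min hε₀ (mul_pos he0 hs))
  have hZ : Z σ₀ = Z σ := by
    have := hE2 σ σ₀ h1
    rw [h2, sub_self] at this
    exact sub_eq_zero.1 (norm_le_zero_iff.1 this)
  have hh0 : h σ₀ = h σ := by
    have := hh σ σ₀ h1
    rw [h2, sub_self, mul_zero] at this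
    linarith [this.1, this.2]
  have key := game_main β
    (fun (φ : P) (σ : S) => h σ + (-β σ - (WeakDual.toStrongDual φ.1) (Z σ))) (C + 2) κ' e
    (by rw [he]; linarith) hE ?_ ?_ ?_ ?_ e he0 σ₀ s hs (by rw [h2]; exact hsb)
  · obtain ⟨σ', h4, h5, h6⟩ := key
    obtain ⟨ψ, hψ1, hψ2, hψ3⟩ := h3 σ' h4
    have hψP : StrongDual.toWeakDual ψ ∈ P := by
      refine ⟨by simpa using hψ1, fun t ht => ?_⟩
      have := hψ2 t.1 (List.mem_map.2 ⟨t, ht, rfl⟩)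
      exact this.trans ((min_le_left _ _).trans (hε₀U t ht))
    have h7 : (κ' - e - e) * s ≤ h σ' + (-β σ' - ψ (Z σ')) - (h σ₀ + (-β σ₀ - ψ (Z σ₀))) :=
      h6 ⟨_, hψP⟩
    have h8 := hσ σ' (h1.trans h4) (by rw [h5, h2])
    have h9 : min ε₀ (e * s) ≤ e * s := min_le_right _ _
    rw [map_sub] at hψ3
    rw [hZ, hh0, h2] at h7
    have h10 : (κ' - e - e) * s = κ * s + 2 * (e * s) := by rw [he]; ring
    have h11 : 0 < e * s := mul_pos he0 hs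
    linarith
  · intro φ τ τ' hτ
    have a1 := hh τ τ' hτ
    have a2 := hE2 τ τ' hτ
    have a3 := apply_le_norm (hnorm φ) (Z τ' - Z τ)
    rw [map_sub, abs_le] at a3
    constructor
    · linarith [a1.1, a3.2]
    · linarith [a1.2, a3.1]
  · intro τ
    exact continuous_const.add (continuous_const.sub
      ((WeakDual.eval_continuous (Z τ)).comp continuous_subtype_val))
  · intro F l hl hl1 τ r hr hrb
    set φ : StrongDual ℝ X := ∑ i ∈ F, l i • WeakDual.toStrongDual i.1 with hφ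
    have hφa : ∀ u, φ u = ∑ i ∈ F, l i * WeakDual.toStrongDual i.1 u := by
      intro u
      rw [hφ, ContinuousLinearMap.sum_apply]
      rfl
    have b1 : ‖φ‖ ≤ 1 := by
      refine (norm_sum_le _ _).trans ?_
      rw [← hl1]
      refine Finset.sum_le_sum fun i _ => ?_
      rw [norm_smul, Real.norm_of_nonneg (hl i)]
      exact mul_le_of_le_one_right (hl i) (hnorm i)
    have b2 : ∀ t ∈ U, φ (Z t.1.1 - Z t.1.2) ≤ t.2 := by
      intro t ht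
      rw [hφa]
      calc ∑ i ∈ F, l i * WeakDual.toStrongDual i.1 (Z t.1.1 - Z t.1.2)
          ≤ ∑ i ∈ F, l i * t.2 :=
            Finset.sum_le_sum fun i _ => mul_le_mul_of_nonneg_left (i.2.2 t ht) (hl i)
        _ = t.2 := by rw [← Finset.sum_mul, hl1, one_mul]
    have b3 := hcon φ b1 b2
    unfold Pers at b3
    push Not at b3
    obtain ⟨τ', c1, c2, c3⟩ := b3 τ r hr hrb
    refine ⟨τ', c1, c2, c3.le.trans (le_of_eq ?_)⟩
    rw [hφa, hφa]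
    have : ∀ i ∈ F, l i * (h τ' + (-β τ' - WeakDual.toStrongDual i.1 (Z τ')) -
        (h τ + (-β τ - WeakDual.toStrongDual i.1 (Z τ))))
        = l i * (h τ' - β τ' - h τ + β τ) - l i * WeakDual.toStrongDual i.1 (Z τ')
          + l i * WeakDual.toStrongDual i.1 (Z τ) := fun i _ => by ring
    rw [Finset.sum_congr rfl this, Finset.sum_add_distrib, Finset.sum_sub_distrib,
      ← Finset.sum_mul, hl1]
    ring
  · intro D hD hne
    obtain ⟨W, hW, φ₀, hφ₀, hφ⟩ := frag (fun (φ : P) (u : X) => WeakDual.toStrongDual φ.1 u)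
      (fun u => (WeakDual.eval_continuous u).comp continuous_subtype_val) V e
      (fun n u => d n u) (fun φ => hd _ _ (half_pos he0)) D hD hne
    refine ⟨W, hW, φ₀, hφ₀, fun φ hφW τ τ' hτ => ?_⟩
    have a1 := hφ φ hφW _ (hV τ τ')
    have a2 := mul_le_mul_of_nonneg_left (hE2 τ τ' hτ) he0.le
    simp only [map_sub] at a1
    linarith

end Step

theorem chain_exists {α γ : Type*} (P : ℕ → List α → List γ → Prop) (Q : List α → γ → Prop)
    (R : List γ → α → Prop) (h0 : P 0 [] [])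
    (hs : ∀ d L U, P d L U → ∃ u φ, Q L u ∧ R (u :: U) φ ∧ P (d + 1) (φ :: L) (u :: U)) :
    ∃ (φ : ℕ → α) (u : ℕ → γ), ∀ d, ∃ L U, Q L (u d) ∧ R U (φ d) ∧ (∀ l, l < d → φ l ∈ L) ∧
      (∀ j, j ≤ d → u j ∈ U) := by
  choose fu fφ hQ hR hP using hs
  let seq : (d : ℕ) → {x : List α × List γ // P d x.1 x.2} := fun d =>
    Nat.rec (motive := fun d => {x : List α × List γ // P d x.1 x.2}) ⟨([], []), h0⟩
      (fun d x => ⟨(fφ d x.1.1 x.1.2 x.2 :: x.1.1, fu d x.1.1 x.1.2 x.2 :: x.1.2),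
        hP d x.1.1 x.1.2 x.2⟩) d
  let φ : ℕ → α := fun d => fφ d (seq d).1.1 (seq d).1.2 (seq d).2
  let u : ℕ → γ := fun d => fu d (seq d).1.1 (seq d).1.2 (seq d).2
  have e1 : ∀ d, (seq (d + 1)).1.1 = φ d :: (seq d).1.1 := fun d => rfl
  have e2 : ∀ d, (seq (d + 1)).1.2 = u d :: (seq d).1.2 := fun d => rfl
  have m1 : ∀ d l, l < d → φ l ∈ (seq d).1.1 := by
    intro d
    induction d with
    | zero => intro l hl; omega
    | succ d ih =>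
      intro l hl
      rw [e1]
      rcases Nat.lt_succ_iff_lt_or_eq.1 hl with h | rfl
      · exact List.mem_cons_of_mem _ (ih l h)
      · exact List.mem_cons_self
  have m2 : ∀ d l, l < d → u l ∈ (seq d).1.2 := by
    intro d
    induction d with
    | zero => intro l hl; omega
    | succ d ih =>
      intro l hl
      rw [e2]
      rcases Nat.lt_succ_iff_lt_or_eq.1 hl with h | rfl
      · exact List.mem_cons_of_mem _ (ih l h)
      · exact List.mem_cons_self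
  refine ⟨φ, u, fun d => ⟨(seq d).1.1, u d :: (seq d).1.2, hQ _ _ _ _, hR _ _ _ _, m1 d, ?_⟩⟩
  intro j hj
  rw [← e2]
  exact m2 (d + 1) j (by omega)

/-- the double limit obstruction in a reflexive space -/
theorem double_limit (hX : Function.Surjective (NormedSpace.inclusionInDoubleDual ℝ X))
    (φ : ℕ → StrongDual ℝ X) (u : ℕ → X) (hφ : ∀ n, ‖φ n‖ ≤ 1) (hu : ∀ n, ‖u n‖ ≤ 1)
    (h1 : ∀ l d, l < d → 1 / 2 ≤ φ l (u d)) (h2 : ∀ j d, j ≤ d → φ d (u j) ≤ 1 / 4) : False := by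
  obtain ⟨w, hw⟩ := exists_wlim hX (hyperfilter ℕ) u 1 hu
  obtain ⟨ψ, -, hψ⟩ := exists_ulim_dual (hyperfilter ℕ) φ 1 hφ
  have hev : ∀ l : ℕ, ∀ᶠ d in (hyperfilter ℕ : Filter ℕ), l < d := fun l =>
    Nat.hyperfilter_le_atTop (eventually_gt_atTop l)
  have a1 : ∀ l, 1 / 2 ≤ φ l w := fun l =>
    ge_of_tendsto (hw (φ l)) ((hev l).mono fun d hd => h1 l d hd)
  have a2 : 1 / 2 ≤ ψ w := ge_of_tendsto (hψ w) (Eventually.of_forall a1)
  have a3 : ∀ j, ψ (u j) ≤ 1 / 4 := fun j =>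
    le_of_tendsto (hψ (u j)) ((hev j).mono fun d hd => h2 j d hd.le)
  have a4 : ψ w ≤ 1 / 4 := le_of_tendsto (hw ψ) (Eventually.of_forall a3)
  linarith

theorem no_system (hX : Function.Surjective (NormedSpace.inclusionInDoubleDual ℝ X))
    {S : Type*} [Preorder S] (β : S → ℝ) (Z : S → X) (σ₁ : S) (hσ₁ : 0 < β σ₁)
    (hsep : TopologicalSpace.IsSeparable (range Z))
    (hE : ∀ σ s, 0 < s → s < β σ → ∃ σ', σ ≤ σ' ∧ β σ' = β σ - s)
    (hE2 : ∀ σ σ', σ ≤ σ' → ‖Z σ' - Z σ‖ ≤ β σ - β σ')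
    (hE3 : ∀ σ (G : List (S × S)) ε, 0 < ε → ∃ σ₀, σ ≤ σ₀ ∧ β σ₀ = β σ ∧ ∀ σ', σ₀ ≤ σ' →
      ∃ ψ : StrongDual ℝ X, ‖ψ‖ ≤ 1 ∧ (∀ t ∈ G, ψ (Z t.1 - Z t.2) ≤ ε) ∧
        β σ - β σ' - ε ≤ ψ (Z σ' - Z σ)) : False := by
  set V : Submodule ℝ X := (Submodule.span ℝ (range Z)).topologicalClosure with hVdef
  have hZV : ∀ σ, Z σ ∈ V := fun σ =>
    Submodule.le_topologicalClosure _ (Submodule.subset_span ⟨σ, rfl⟩)
  obtain ⟨d, hd⟩ := exists_dense_functionals hX V (Submodule.isClosed_topologicalClosure _)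
    hsep.span.closure
  let κ : ℕ → ℝ := fun n => 1 / 2 - 1 / 2 * (1 / 2) ^ n
  have hκ0 : ∀ n, 0 ≤ κ n := fun n => by
    have : ((1 : ℝ) / 2) ^ n ≤ 1 := pow_le_one₀ (by norm_num) (by norm_num)
    simp only [κ]; linarith
  have hκ1 : ∀ n, κ n ≤ 1 / 2 := fun n => by
    have : 0 < ((1 : ℝ) / 2) ^ n := by positivity
    simp only [κ]; linarith
  have hκ2 : ∀ n, κ n < κ (n + 1) := fun n => by
    have : 0 < ((1 : ℝ) / 2) ^ n := by positivity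
    simp only [κ, pow_succ]; linarith
  have key := chain_exists (α := StrongDual ℝ X) (γ := (S × S) × ℝ)
    (fun n L U => (∀ t ∈ U, 0 < t.2) ∧ ∃ (h : S → ℝ) (C : ℝ),
      (∀ σ σ', σ ≤ σ' → 0 ≤ h σ' - h σ ∧ h σ' - h σ ≤ C * (β σ - β σ')) ∧ Pers β h (κ n) ∧
      ∀ φ ∈ L, ∀ σ σ', σ ≤ σ' → β σ - β σ' - φ (Z σ' - Z σ) ≤ h σ' - h σ)
    (fun L t => 0 < t.2 ∧ ‖Z t.1.1 - Z t.1.2‖ ≤ 4 * t.2 ∧
      ∀ φ ∈ L, 2 * t.2 ≤ φ (Z t.1.1 - Z t.1.2))
    (fun U φ => ‖φ‖ ≤ 1 ∧ ∀ t ∈ U, φ (Z t.1.1 - Z t.1.2) ≤ t.2) ?_ ?_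
  · obtain ⟨φ, u, hφu⟩ := key
    choose L U hQ hR hL hU using hφu
    refine double_limit hX φ (fun n => (4 * (u n).2)⁻¹ • (Z (u n).1.1 - Z (u n).1.2))
      (fun n => (hR n).1) (fun n => ?_) (fun l n hl => ?_) (fun j n hj => ?_)
    · have := (hQ n).1
      rw [norm_smul, Real.norm_of_nonneg (by positivity), inv_mul_le_iff₀ (by positivity)]
      linarith [(hQ n).2.1]
    · have := (hQ n).1
      rw [map_smul, smul_eq_mul, le_inv_mul_iff₀ (by positivity)]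
      linarith [(hQ n).2.2 _ (hL n l hl)]
    · have := (hQ j).1
      rw [map_smul, smul_eq_mul, inv_mul_le_iff₀ (by positivity)]
      linarith [(hR n).2 _ (hU n j hj)]
  · refine ⟨by simp, fun _ => 0, 0, fun σ σ' _ => by simp, ?_, by simp⟩
    exact ⟨σ₁, β σ₁ / 2, half_pos hσ₁, half_lt_self hσ₁, fun σ' _ _ => by simp [κ]⟩
  · rintro n L U ⟨hU, h, C, hh, hP, hL⟩
    obtain ⟨σ, s, hs, hsb, hσ⟩ := id hP
    obtain ⟨σ', h1, h2⟩ := hE σ s hs hsb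
    have hU' : ∀ t ∈ (((σ', σ), s / 4) :: U), 0 < t.2 := by
      intro t ht
      rcases List.mem_cons.1 ht with rfl | ht
      · show 0 < s / 4
        positivity
      · exact hU t ht
    obtain ⟨φ, hφ1, hφ2, hφ3⟩ := step_lemma β Z (V : Set X)
      (fun σ σ' => V.sub_mem (hZV σ') (hZV σ)) d hd hE hE2 hE3 h C hh (κ n) (κ (n + 1))
      (hκ0 n) (hκ2 n) hP _ hU'
    have hΔ : ∀ τ τ', τ ≤ τ' → 0 ≤ β τ - β τ' - φ (Z τ' - Z τ) ∧
        β τ - β τ' - φ (Z τ' - Z τ) ≤ 2 * (β τ - β τ') := by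
      intro τ τ' hτ
      have a2 := hE2 τ τ' hτ
      have a3 := apply_le_norm hφ1 (Z τ' - Z τ)
      rw [abs_le] at a3
      constructor
      · linarith [a3.2]
      · linarith [a3.1]
    refine ⟨((σ', σ), s / 4), φ, ⟨by positivity, ?_, fun φ' hφ' => ?_⟩, ⟨hφ1, hφ2⟩, hU',
      fun σ => h σ + (-β σ - φ (Z σ)), C + 2, fun τ τ' hτ => ?_, hφ3, fun φ' hφ' τ τ' hτ => ?_⟩
    · have := hE2 σ σ' h1
      show ‖Z σ' - Z σ‖ ≤ 4 * (s / 4)
      linarith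
    · have a1 := hL φ' hφ' σ σ' h1
      have a2 := hσ σ' h1 h2
      have a3 := mul_le_mul_of_nonneg_right (hκ1 n) hs.le
      show 2 * (s / 4) ≤ φ' (Z σ' - Z σ)
      linarith
    · have a1 := hh τ τ' hτ
      have a2 := hΔ τ τ' hτ
      rw [map_sub] at a2
      constructor
      · linarith [a1.1, a2.1]
      · linarith [a1.2, a2.2]
    · have a1 := hh τ τ' hτ
      have a2 := hΔ τ τ' hτ
      rcases List.mem_cons.1 hφ' with rfl | hφ'
      · rw [map_sub]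
        linarith [a1.1]
      · have a3 := hL φ' hφ' τ τ' hτ
        rw [map_sub] at a2
        linarith [a2.1]

end Vale.Agent.P079
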