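import Mathlib

/-! Abstract budget game: approachability for finite sets, then a Zorn argument along a
fragmentation of a compact space of potentials. -/

namespace Vale.Agent.P079

open Set Finset

section Game

variable {S : Type*} [Preorder S] (β : S → ℝ)

/-- iteration of `N` steps of equal mass -/
theorem iterate_steps (σ : S) (m : ℝ) (N : ℕ) (Inv : ℕ → S → Prop) (h0 : Inv 0 σ)
    (hstep : ∀ j, j < N → ∀ τ, σ ≤ τ → β τ = β σ - j * m → Inv j τ →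
      ∃ τ', τ ≤ τ' ∧ β τ' = β τ - m ∧ Inv (j + 1) τ') :
    ∀ j, j ≤ N → ∃ τ, σ ≤ τ ∧ β τ = β σ - j * m ∧ Inv j τ := by
  intro j
  induction j with
  | zero => intro _; exact ⟨σ, le_rfl, by simp, h0⟩
  | succ j ih =>
    intro hj
    obtain ⟨τ, h1, h2, h3⟩ := ih (by omega)
    obtain ⟨τ', h4, h5, h6⟩ := hstep j (by omega) τ h1 h2 h3
    refine ⟨τ', h1.trans h4, ?_, h6⟩
    rw [h5, h2]; push_cast; ring

theorem pos_part_sq_le (v w : ℝ) :
    (max (v + w) 0) ^ 2 ≤ (max v 0) ^ 2 + 2 * (max v 0) * w + w ^ 2 := by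
  have h : (max v 0) ^ 2 + 2 * (max v 0) * w + w ^ 2 = (max v 0 + w) ^ 2 := by ring
  rw [h]
  rcases le_total (v + w) 0 with h1 | h1
  · rw [max_eq_right h1]; simpa using sq_nonneg (max v 0 + w)
  · rw [max_eq_left h1]
    have : v ≤ max v 0 := le_max_left _ _
    exact pow_le_pow_left₀ h1 (by linarith) 2

theorem step_bound {N : ℕ} {j : ℕ} (hj : j < N) {s b : ℝ} (hs : 0 < s) (hsb : s < b) :
    0 < s / N ∧ s / N < b - j * (s / N) := by
  have hN : (0 : ℝ) < N := by exact_mod_cast (by omega : 0 < N)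
  have hj' : (j : ℝ) + 1 ≤ N := by exact_mod_cast hj
  refine ⟨div_pos hs hN, ?_⟩
  have h1 : ((j : ℝ) + 1) * (s / N) ≤ N * (s / N) :=
    mul_le_mul_of_nonneg_right hj' (div_pos hs hN).le
  have h2 : (N : ℝ) * (s / N) = s := by field_simp
  linarith

variable {Ψ : Type*} (g : Ψ → S → ℝ) (C κ : ℝ)

/-- Blackwell approachability for finitely many potentials. -/
theorem blackwell
    (hE : ∀ σ s, 0 < s → s < β σ → ∃ σ', σ ≤ σ' ∧ β σ' = β σ - s)
    (hmono : ∀ φ σ σ', σ ≤ σ' → 0 ≤ g φ σ' - g φ σ ∧ g φ σ' - g φ σ ≤ C * (β σ - β σ'))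
    (hH : ∀ (F : Finset Ψ) (l : Ψ → ℝ), (∀ i, 0 ≤ l i) → ∑ i ∈ F, l i = 1 → ∀ σ s, 0 < s →
      s < β σ → ∃ σ', σ ≤ σ' ∧ β σ' = β σ - s ∧ κ * s ≤ ∑ i ∈ F, l i * (g i σ' - g i σ))
    (F : Finset Ψ) (γ : ℝ) (hγ : 0 < γ) (σ : S) (s : ℝ) (hs : 0 < s) (hsb : s < β σ) :
    ∃ σ', σ ≤ σ' ∧ β σ' = β σ - s ∧ ∀ i ∈ F, (κ - γ) * s ≤ g i σ' - g i σ := by
  classical
  set A : ℝ := |κ| + |C| with hA
  obtain ⟨N, hN⟩ := exists_nat_gt ((F.card : ℝ) * A ^ 2 / γ ^ 2 + 1)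
  have hA0 : 0 ≤ (F.card : ℝ) * A ^ 2 / γ ^ 2 := by positivity
  have hNpos : (0 : ℝ) < N := by linarith
  set m : ℝ := s / N with hm
  have hmpos : 0 < m := div_pos hs hNpos
  have key := iterate_steps β σ m N
    (fun j τ => ∑ i ∈ F, (max (κ * (j * m) - (g i τ - g i σ)) 0) ^ 2
      ≤ j * ((F.card : ℝ) * (A * m) ^ 2)) (by simp) ?_ N le_rfl
  · obtain ⟨τ, h1, h2, h3⟩ := key
    have hNm : (N : ℝ) * m = s := by rw [hm]; field_simp
    refine ⟨τ, h1, by rw [h2, hNm], fun i hi => ?_⟩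
    rw [hNm] at h3
    have h4 : (max (κ * s - (g i τ - g i σ)) 0) ^ 2 ≤ N * ((F.card : ℝ) * (A * m) ^ 2) :=
      le_trans (Finset.single_le_sum (f := fun i => (max (κ * s - (g i τ - g i σ)) 0) ^ 2)
        (fun _ _ => sq_nonneg _) hi) h3
    have h5 : (N : ℝ) * ((F.card : ℝ) * (A * m) ^ 2) ≤ (γ * s) ^ 2 := by
      have h6 : (F.card : ℝ) * A ^ 2 ≤ γ ^ 2 * N := by
        have : (F.card : ℝ) * A ^ 2 / γ ^ 2 ≤ N := by linarith
        rw [div_le_iff₀ (by positivity)] at this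
        linarith
      have h7 : (N : ℝ) * ((F.card : ℝ) * (A * m) ^ 2) = ((F.card : ℝ) * A ^ 2) * (N * m * m) := by
        ring
      have h8 : (γ * s) ^ 2 = (γ ^ 2 * N) * (N * m * m) := by rw [← hNm]; ring
      rw [h7, h8]
      exact mul_le_mul_of_nonneg_right h6 (by positivity)
    have h9 : max (κ * s - (g i τ - g i σ)) 0 ≤ γ * s :=
      (pow_le_pow_iff_left₀ (le_max_right _ _) (by positivity) two_ne_zero).1 (h4.trans h5)
    have h10 := le_max_left (κ * s - (g i τ - g i σ)) 0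
    linarith
  · intro j hj τ hτ hβ hinv
    obtain ⟨-, hlt⟩ := step_bound hj hs hsb
    rw [← hm, ← hβ] at hlt
    set v : Ψ → ℝ := fun i => max (κ * (j * m) - (g i τ - g i σ)) 0 with hv
    have hv0 : ∀ i, 0 ≤ v i := fun i => le_max_right _ _
    have hex : ∃ τ', τ ≤ τ' ∧ β τ' = β τ - m ∧
        ∑ i ∈ F, v i * (κ * m - (g i τ' - g i τ)) ≤ 0 := by
      rcases (Finset.sum_nonneg (fun i (_ : i ∈ F) => hv0 i)).eq_or_lt with h | h
      · obtain ⟨τ', h1, h2⟩ := hE τ m hmpos hlt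
        refine ⟨τ', h1, h2, le_of_eq (Finset.sum_eq_zero fun i hi => ?_)⟩
        rw [(Finset.sum_eq_zero_iff_of_nonneg (fun i _ => hv0 i)).1 h.symm i hi, zero_mul]
      · obtain ⟨τ', h1, h2, h3⟩ := hH F (fun i => v i / ∑ i ∈ F, v i)
          (fun i => div_nonneg (hv0 i) h.le) (by rw [← Finset.sum_div]; exact div_self h.ne') τ m
          hmpos hlt
        refine ⟨τ', h1, h2, ?_⟩
        have h4 : ∑ i ∈ F, v i / (∑ i ∈ F, v i) * (g i τ' - g i τ)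
            = (∑ i ∈ F, v i * (g i τ' - g i τ)) / ∑ i ∈ F, v i := by
          rw [Finset.sum_div]; exact Finset.sum_congr rfl fun i _ => by ring
        rw [h4, le_div_iff₀ h] at h3
        have h5 : ∑ i ∈ F, v i * (κ * m - (g i τ' - g i τ))
            = κ * m * ∑ i ∈ F, v i - ∑ i ∈ F, v i * (g i τ' - g i τ) := by
          rw [Finset.mul_sum, ← Finset.sum_sub_distrib]
          exact Finset.sum_congr rfl fun i _ => by ring
        linarith
    obtain ⟨τ', h1, h2, h3⟩ := hex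
    refine ⟨τ', h1, h2, ?_⟩
    have hterm : ∀ i ∈ F, (max (κ * (((j + 1 : ℕ) : ℝ) * m) - (g i τ' - g i σ)) 0) ^ 2
        ≤ (v i) ^ 2 + 2 * (v i * (κ * m - (g i τ' - g i τ))) + (A * m) ^ 2 := by
      intro i _
      have e : κ * (((j + 1 : ℕ) : ℝ) * m) - (g i τ' - g i σ)
          = (κ * (j * m) - (g i τ - g i σ)) + (κ * m - (g i τ' - g i τ)) := by
        push_cast; ring
      rw [e]
      refine (pos_part_sq_le _ _).trans ?_
      have hb := hmono i τ τ' h1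
      rw [h2, sub_sub_cancel] at hb
      have hw : |κ * m - (g i τ' - g i τ)| ≤ A * m := by
        have a1 : κ * m ≤ |κ| * m := mul_le_mul_of_nonneg_right (le_abs_self _) hmpos.le
        have a2 : -|κ| * m ≤ κ * m := mul_le_mul_of_nonneg_right (neg_abs_le _) hmpos.le
        have a3 : C * m ≤ |C| * m := mul_le_mul_of_nonneg_right (le_abs_self _) hmpos.le
        have a4 : 0 ≤ |C| * m := by positivity
        rw [abs_le, hA]; constructor <;> nlinarith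
      have hw2 : (κ * m - (g i τ' - g i τ)) ^ 2 ≤ (A * m) ^ 2 := by
        rw [← sq_abs]; exact pow_le_pow_left₀ (abs_nonneg _) hw 2
      simp only [hv]
      linarith
    refine (Finset.sum_le_sum hterm).trans ?_
    rw [Finset.sum_add_distrib, Finset.sum_add_distrib, ← Finset.mul_sum, Finset.sum_const,
      nsmul_eq_mul]
    have : ∑ i ∈ F, (v i) ^ 2 ≤ j * ((F.card : ℝ) * (A * m) ^ 2) := hinv
    push_cast
    linarith

/-- the property propagated by Zorn's lemma -/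
def Good [TopologicalSpace Ψ] (e : ℝ) (O : Set Ψ) : Prop :=
  ∀ (F : Finset Ψ) (B : Set Ψ), IsClosed B → B ⊆ O → ∀ γ, 0 < γ → ∀ σ s, 0 < s → s < β σ →
    ∃ σ', σ ≤ σ' ∧ β σ' = β σ - s ∧ (∀ i ∈ F, (κ - γ) * s ≤ g i σ' - g i σ) ∧
      ∀ φ ∈ B, (κ - e - γ) * s ≤ g φ σ' - g φ σ

theorem good_union [TopologicalSpace Ψ] (e : ℝ) (he : e ≤ κ)
    (hmono : ∀ φ σ σ', σ ≤ σ' → 0 ≤ g φ σ' - g φ σ)
    (hcont : ∀ σ, Continuous fun φ => g φ σ)
    {O W : Set Ψ} (hO : Good β g κ e O) (φ₀ : Ψ)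
    (hW : ∀ φ ∈ W, φ ∉ O → ∀ σ σ', σ ≤ σ' →
      g φ₀ σ' - g φ₀ σ - e * (β σ - β σ') ≤ g φ σ' - g φ σ) :
    Good β g κ e (O ∪ W) := by
  classical
  intro F A hA hAO γ hγ σ s hs hsb
  obtain ⟨N, hN⟩ := exists_nat_gt (2 * (κ - e) / γ + 1)
  have h0 : 0 ≤ 2 * (κ - e) / γ := div_nonneg (by linarith) hγ.le
  have hNpos : (0 : ℝ) < N := by linarith
  set m : ℝ := s / N with hm
  have hmpos : 0 < m := div_pos hs hNpos
  have key := iterate_steps β σ m N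
    (fun j τ => (∀ i ∈ insert φ₀ F, (κ - γ / 2) * (j * m) ≤ g i τ - g i σ) ∧
      ∀ φ ∈ A, (κ - e - γ / 2) * (j * m) - (κ - e) * m ≤ g φ τ - g φ σ) ?_ ?_ N le_rfl
  · obtain ⟨τ, h1, h2, h3, h4⟩ := key
    have hNm : (N : ℝ) * m = s := by rw [hm]; field_simp
    rw [hNm] at h2 h3 h4
    refine ⟨τ, h1, h2, fun i hi => ?_, fun φ hφ => ?_⟩
    · have := h3 i (Finset.mem_insert_of_mem hi)
      nlinarith
    · have h5 := h4 φ hφ
      have h6 : 2 * (κ - e) ≤ N * γ := by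
        have : 2 * (κ - e) / γ ≤ N := by linarith
        rwa [div_le_iff₀ hγ] at this
      have h7 : 2 * (κ - e) * m ≤ N * γ * m := mul_le_mul_of_nonneg_right h6 hmpos.le
      have h8 : N * γ * m = γ * s := by rw [← hNm]; ring
      nlinarith
  · refine ⟨fun i _ => by simp, fun φ _ => ?_⟩
    have : 0 ≤ (κ - e) * m := mul_nonneg (by linarith) hmpos.le
    simp only [Nat.cast_zero, zero_mul, mul_zero, sub_self]
    linarith
  · rintro j hj τ hτ hβ ⟨hi1, hi2⟩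
    obtain ⟨-, hlt⟩ := step_bound hj hs hsb
    rw [← hm, ← hβ] at hlt
    set B : Set Ψ := A ∩ {φ | g φ τ - g φ σ ≤ (κ - e - γ / 2) * (j * m) - γ / 2 * m} with hB
    have hBc : IsClosed B :=
      hA.inter (isClosed_le ((hcont τ).sub (hcont σ)) continuous_const)
    have hBO : B ⊆ O := by
      rintro φ ⟨hφA, hφ⟩
      by_contra hφO
      have hφW : φ ∈ W := (hAO hφA).resolve_left hφO
      have a1 := hW φ hφW hφO σ τ hτ
      have a2 := hi1 φ₀ (Finset.mem_insert_self _ _)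
      have a3 : β σ - β τ = j * m := by rw [hβ]; ring
      have a4 : 0 < γ / 2 * m := by positivity
      simp only [Set.mem_ofPred_eq] at hφ
      rw [a3] at a1
      nlinarith
    obtain ⟨τ', h1, h2, h3, h4⟩ := hO (insert φ₀ F) B hBc hBO (γ / 2) (by positivity) τ m hmpos hlt
    refine ⟨τ', h1, h2, fun i hi => ?_, fun φ hφ => ?_⟩
    · have a1 := h3 i hi
      have a2 := hi1 i hi
      push_cast
      nlinarith
    · by_cases hφB : φ ∈ B
      · have a1 := h4 φ hφB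
        have a2 := hi2 φ hφ
        push_cast
        nlinarith
      · have a1 : ¬ (g φ τ - g φ σ ≤ (κ - e - γ / 2) * (j * m) - γ / 2 * m) :=
          fun h => hφB ⟨hφ, h⟩
        have a2 := hmono φ τ τ' h1
        push_cast
        nlinarith

/-- The main lemma on the budget game. -/
theorem game_main [TopologicalSpace Ψ] [CompactSpace Ψ] (e : ℝ) (he : e ≤ κ)
    (hE : ∀ σ s, 0 < s → s < β σ → ∃ σ', σ ≤ σ' ∧ β σ' = β σ - s)
    (hmono : ∀ φ σ σ', σ ≤ σ' → 0 ≤ g φ σ' - g φ σ ∧ g φ σ' - g φ σ ≤ C * (β σ - β σ'))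
    (hcont : ∀ σ, Continuous fun φ => g φ σ)
    (hH : ∀ (F : Finset Ψ) (l : Ψ → ℝ), (∀ i, 0 ≤ l i) → ∑ i ∈ F, l i = 1 → ∀ σ s, 0 < s →
      s < β σ → ∃ σ', σ ≤ σ' ∧ β σ' = β σ - s ∧ κ * s ≤ ∑ i ∈ F, l i * (g i σ' - g i σ))
    (hfrag : ∀ D : Set Ψ, IsClosed D → D.Nonempty → ∃ W : Set Ψ, IsOpen W ∧ ∃ φ₀ ∈ W ∩ D,
      ∀ φ ∈ W ∩ D, ∀ σ σ', σ ≤ σ' → g φ₀ σ' - g φ₀ σ - e * (β σ - β σ') ≤ g φ σ' - g φ σ)
    (γ : ℝ) (hγ : 0 < γ) (σ : S) (s : ℝ) (hs : 0 < s) (hsb : s < β σ) :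
    ∃ σ', σ ≤ σ' ∧ β σ' = β σ - s ∧ ∀ φ, (κ - e - γ) * s ≤ g φ σ' - g φ σ := by
  have hempty : Good β g κ e (∅ : Set Ψ) := by
    intro F B _ hB γ hγ σ s hs hsb
    obtain ⟨σ', h1, h2, h3⟩ := blackwell β g C κ hE hmono hH F γ hγ σ s hs hsb
    exact ⟨σ', h1, h2, h3, fun φ hφ => (hB hφ).elim⟩
  obtain ⟨O, -, hO⟩ := zorn_subset_nonempty {O : Set Ψ | IsOpen O ∧ Good β g κ e O} (by
    intro c hc hchain hne
    refine ⟨⋃₀ c, ⟨isOpen_sUnion fun t ht => (hc ht).1, ?_⟩, fun s hs => subset_sUnion_of_mem hs⟩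
    intro F B hB hBc
    have : Nonempty c := hne.to_subtype
    obtain ⟨i, hi⟩ := hB.isCompact.elim_directed_cover (fun i : c => (i : Set Ψ))
      (fun i => (hc i.2).1) (by rwa [← sUnion_eq_iUnion]) hchain.directedOn.directed_val
    exact (hc i.2).2 F B hB hi) ∅ ⟨isOpen_empty, hempty⟩
  have hOuniv : O = Set.univ := by
    by_contra hne
    have hD : (Oᶜ).Nonempty := Set.nonempty_compl.2 hne
    obtain ⟨W, hW, φ₀, hφ₀, h⟩ := hfrag Oᶜ hO.prop.1.isClosed_compl hD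
    have hg : Good β g κ e (O ∪ W) :=
      good_union β g κ e he (fun φ σ σ' h => (hmono φ σ σ' h).1) hcont hO.prop.2 φ₀
        (fun φ h1 h2 => h φ ⟨h1, h2⟩)
    have := hO.eq_of_subset (t := O ∪ W) ⟨hO.prop.1.union hW, hg⟩ Set.subset_union_left
    have h3 : φ₀ ∈ O := by rw [this]; exact Or.inr hφ₀.1
    exact hφ₀.2 h3
  obtain ⟨σ', h1, h2, -, h4⟩ := hO.prop.2 ∅ Set.univ isClosed_univ (by rw [hOuniv]) γ hγ σ s hs hsb
  exact ⟨σ', h1, h2, fun φ => h4 φ (Set.mem_univ _)⟩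

end Game

end Vale.Agent.P079
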