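import Vale.Agent.P079.Weak

/-! Minimal invariant sets, the Goebel-Karlovitz lemma in uniform form, and resolvents. -/

namespace Vale.Agent.P079

open Set Filter Topology

variable {X : Type*} [NormedAddCommGroup X] [NormedSpace ℝ X]

/-- nonempty closed convex invariant sets -/
def Inv (T : X → X) (A : Set X) : Prop :=
  A.Nonempty ∧ IsClosed A ∧ Convex ℝ A ∧ MapsTo T A A

omit [NormedSpace ℝ X] in
theorem contOn_of_nonexp {T : X → X} {C : Set X}
    (hT : ∀ a ∈ C, ∀ b ∈ C, ‖T a - T b‖ ≤ ‖a - b‖) : ContinuousOn T C := by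
  refine (LipschitzOnWith.of_dist_le_mul (K := 1) fun a ha b hb => ?_).continuousOn
  rw [dist_eq_norm, dist_eq_norm]
  simpa using hT a ha b hb

theorem exists_separable_inv {T : X → X} {C : Set X} (hC : Inv T C)
    (hT : ∀ a ∈ C, ∀ b ∈ C, ‖T a - T b‖ ≤ ‖a - b‖) :
    ∃ A ⊆ C, Inv T A ∧ TopologicalSpace.IsSeparable A := by
  obtain ⟨⟨x₀, hx₀⟩, hcl, hcv, hmaps⟩ := hC
  have hcont := contOn_of_nonexp hT
  let A : ℕ → Set X := fun n => Nat.rec {x₀} (fun _ B => convexHull ℝ (B ∪ T '' B)) n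
  have hA0 : A 0 = {x₀} := rfl
  have hAs : ∀ n, A (n + 1) = convexHull ℝ (A n ∪ T '' A n) := fun n => rfl
  have hAC : ∀ n, A n ⊆ C := by
    intro n
    induction n with
    | zero => rw [hA0]; exact singleton_subset_iff.2 hx₀
    | succ n ih =>
      rw [hAs]
      exact convexHull_min (union_subset ih ((image_mono ih).trans hmaps.image_subset)) hcv
  have hAsep : ∀ n, TopologicalSpace.IsSeparable (A n) := by
    intro n
    induction n with
    | zero => rw [hA0]; exact (countable_singleton x₀).isSeparable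
    | succ n ih =>
      rw [hAs]
      have h1 := ih.union ((hcont.mono (hAC n)).isSeparable_image ih)
      exact (h1.span (R := ℝ)).mono
        (convexHull_min Submodule.subset_span (Submodule.span ℝ _).convex)
  have hAmono : Monotone A := monotone_nat_of_le_succ fun n => by
    rw [hAs]; exact subset_union_left.trans (subset_convexHull ℝ _)
  have hAconv : ∀ n, Convex ℝ (A n) := by
    intro n
    cases n with
    | zero => rw [hA0]; exact convex_singleton x₀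
    | succ n => rw [hAs]; exact convex_convexHull ℝ _
  have hsub : closure (⋃ n, A n) ⊆ C := closure_minimal (iUnion_subset hAC) hcl
  refine ⟨closure (⋃ n, A n), hsub, ⟨⟨x₀, subset_closure (mem_iUnion.2 ⟨0, rfl⟩)⟩,
    isClosed_closure, (hAmono.directed_le.convex_iUnion hAconv).closure, ?_⟩,
    (TopologicalSpace.IsSeparable.iUnion hAsep).closure⟩
  refine MapsTo.closure_of_continuousOn (fun x hx => ?_) (hcont.mono hsub)
  obtain ⟨n, hn⟩ := mem_iUnion.1 hx
  refine mem_iUnion.2 ⟨n + 1, ?_⟩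
  rw [hAs]
  exact subset_convexHull ℝ _ (Or.inr ⟨x, hn, rfl⟩)

theorem exists_minimal_inv (hX : Function.Surjective (NormedSpace.inclusionInDoubleDual ℝ X))
    {T : X → X} {C : Set X} (hC : Inv T C) (hb : Bornology.IsBounded C) :
    ∃ K ⊆ C, Inv T K ∧ ∀ A ⊆ K, Inv T A → A = K := by
  obtain ⟨M, hM⟩ := hb.exists_norm_le
  obtain ⟨K, hKC, hK⟩ := zorn_superset_nonempty {A : Set X | A ⊆ C ∧ Inv T A} (by
    intro c hc hchain hne
    have hsub : ∀ s ∈ c, ⋂₀ c ⊆ s := fun s hs => sInter_subset_of_mem hs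
    obtain ⟨s₀, hs₀⟩ := id hne
    refine ⟨⋂₀ c, ⟨(hsub s₀ hs₀).trans (hc hs₀).1, ?_, isClosed_sInter fun s hs => (hc hs).2.2.1,
      convex_sInter fun s hs => (hc hs).2.2.2.1, fun x hx => mem_sInter.2 fun s hs =>
        (hc hs).2.2.2.2 (hsub s hs hx)⟩, hsub⟩
    have hnb : (atBot : Filter c).NeBot := by
      refine atBot_neBot_iff.2 ⟨hne.to_subtype, ⟨fun a b => ?_⟩⟩
      rcases hchain.total a.2 b.2 with h | h
      · exact ⟨a, le_rfl, h⟩
      · exact ⟨b, h, le_rfl⟩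
    choose x hx using fun s : c => (hc s.2).2.1
    obtain ⟨w, hw⟩ := exists_wlim hX (Ultrafilter.of (atBot : Filter c)) x M
      fun s => hM _ ((hc s.2).1 (hx s))
    refine ⟨w, mem_sInter.2 fun s hs => wlim_mem hw (hc hs).2.2.1 (hc hs).2.2.2.1 ?_⟩
    refine Ultrafilter.of_le (atBot : Filter c) ?_
    exact (eventually_le_atBot (⟨s, hs⟩ : c)).mono fun t ht => ht (hx t)) C ⟨le_rfl, hC⟩
  exact ⟨K, hKC, hK.prop.2, fun A hA hA' => hK.eq_of_subset ⟨hA.trans hKC, hA'⟩ hA⟩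

theorem minimal_ball {T : X → X} {K : Set X} (hK : Inv T K) (hmin : ∀ A ⊆ K, Inv T A → A = K)
    (hT : ∀ a ∈ K, ∀ b ∈ K, ‖T a - T b‖ ≤ ‖a - b‖) {w : X} (hw : w ∈ K) {r : ℝ}
    (hr : ∀ z ∈ K, ‖w - z‖ ≤ r) : ∀ a ∈ K, ∀ b ∈ K, ‖a - b‖ ≤ r := by
  obtain ⟨⟨x₀, hx₀⟩, hcl, hcv, hmaps⟩ := hK
  have hsub : closure (convexHull ℝ (T '' K)) ⊆ K :=
    closure_minimal (convexHull_min hmaps.image_subset hcv) hcl
  have h1 : closure (convexHull ℝ (T '' K)) = K := by
    refine hmin _ hsub ⟨⟨T x₀, subset_closure (subset_convexHull ℝ _ ⟨x₀, hx₀, rfl⟩)⟩,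
      isClosed_closure, (convex_convexHull ℝ _).closure, fun x hx => ?_⟩
    exact subset_closure (subset_convexHull ℝ _ ⟨x, hsub hx, rfl⟩)
  have hmem : ∀ x, x ∈ K ∩ ⋂ z ∈ K, Metric.closedBall z r ↔ x ∈ K ∧ ∀ z ∈ K, ‖x - z‖ ≤ r := by
    intro x
    simp [dist_eq_norm]
  have h2 : K ∩ ⋂ z ∈ K, Metric.closedBall z r = K := by
    refine hmin _ inter_subset_left ⟨⟨w, (hmem w).2 ⟨hw, hr⟩⟩,
      hcl.inter (isClosed_biInter fun z _ => Metric.isClosed_closedBall),
      hcv.inter (convex_iInter₂ fun z _ => convex_closedBall z r), fun x hx => ?_⟩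
    obtain ⟨hx1, hx2⟩ := (hmem x).1 hx
    refine (hmem _).2 ⟨hmaps hx1, fun z hz => ?_⟩
    have h3 : closure (convexHull ℝ (T '' K)) ⊆ Metric.closedBall (T x) r := by
      refine closure_minimal (convexHull_min ?_ (convex_closedBall _ _))
        Metric.isClosed_closedBall
      rintro _ ⟨y, hy, rfl⟩
      rw [mem_closedBall_iff_norm']
      exact (hT x hx1 y hy).trans (hx2 y hy)
    rw [h1] at h3
    exact mem_closedBall_iff_norm'.1 (h3 hz)
  intro a ha b hb
  rw [← h2] at ha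
  exact ((hmem a).1 ha).2 b hb

/-- the Goebel-Karlovitz lemma, uniform form -/
theorem goebel_karlovitz (hX : Function.Surjective (NormedSpace.inclusionInDoubleDual ℝ X))
    {T : X → X} {K : Set X} (hK : Inv T K) (hb : Bornology.IsBounded K)
    (hmin : ∀ A ⊆ K, Inv T A → A = K)
    (hT : ∀ a ∈ K, ∀ b ∈ K, ‖T a - T b‖ ≤ ‖a - b‖) {x : X} (hx : x ∈ K) {ε : ℝ} (hε : 0 < ε) :
    ∃ η, 0 < η ∧ ∀ f ∈ K, ‖f - T f‖ ≤ η → Metric.diam K - ε ≤ ‖f - x‖ := by
  by_contra hcon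
  push Not at hcon
  choose f hf1 hf2 hf3 using fun n : ℕ => hcon (1 / ((n : ℝ) + 1)) Nat.one_div_pos_of_nat
  obtain ⟨M, hM⟩ := hb.exists_norm_le
  set ρ := Metric.diam K - ε with hρ
  obtain ⟨hne, hcl, hcv, hmaps⟩ := id hK
  set N : Set X := {z | z ∈ K ∧ ∀ δ, 0 < δ → ∀ᶠ n in atTop, ‖f n - z‖ ≤ ρ + δ} with hN
  have hNK : N = K := by
    refine hmin N (fun z hz => hz.1) ⟨⟨x, hx, fun δ hδ => Eventually.of_forall fun n => ?_⟩,
      ?_, ?_, ?_⟩
    · linarith [hf3 n]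
    · refine isClosed_of_closure_subset fun z hz =>
        ⟨closure_minimal (fun z hz => hz.1) hcl hz, fun δ hδ => ?_⟩
      obtain ⟨z', hz', hd⟩ := Metric.mem_closure_iff.1 hz (δ / 2) (half_pos hδ)
      filter_upwards [hz'.2 (δ / 2) (half_pos hδ)] with n hn
      rw [dist_comm, dist_eq_norm] at hd
      have := norm_sub_le_norm_sub_add_norm_sub (f n) z' z
      linarith
    · intro a ha b hb' s t hs ht hst
      refine ⟨hcv ha.1 hb'.1 hs ht hst, fun δ hδ => ?_⟩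
      filter_upwards [ha.2 δ hδ, hb'.2 δ hδ] with n h1 h2
      have := convex_closedBall (f n) (ρ + δ) (mem_closedBall_iff_norm'.2 h1)
        (mem_closedBall_iff_norm'.2 h2) hs ht hst
      exact mem_closedBall_iff_norm'.1 this
    · intro z hz
      refine ⟨hmaps hz.1, fun δ hδ => ?_⟩
      have h0 : ∀ᶠ n : ℕ in atTop, 1 / ((n : ℝ) + 1) < δ / 2 :=
        (tendsto_order.1 tendsto_one_div_add_atTop_nhds_zero_nat).2 _ (half_pos hδ)
      filter_upwards [hz.2 (δ / 2) (half_pos hδ), h0] with n h1 h2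
      have h3 := norm_sub_le_norm_sub_add_norm_sub (f n) (T (f n)) (T z)
      have h4 := hT (f n) (hf1 n) z hz.1
      linarith [hf2 n]
  obtain ⟨w, hw⟩ := exists_wlim hX (hyperfilter ℕ) f M fun n => hM _ (hf1 n)
  have hwK : w ∈ K := wlim_mem hw hcl hcv (Eventually.of_forall hf1)
  have hwr : ∀ z ∈ K, ‖w - z‖ ≤ ρ := by
    intro z hz
    rw [← hNK] at hz
    exact wlim_norm_le (x' := fun _ => z) hw (fun _ => tendsto_const_nhds)
      fun δ hδ => Nat.hyperfilter_le_atTop (hz.2 δ hδ)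
  have h5 := minimal_ball hK hmin hT hwK hwr
  have h6 : Metric.diam K ≤ ρ := Metric.diam_le_of_forall_dist_le_of_nonempty hne
    fun a ha b hb' => by rw [dist_eq_norm]; exact h5 a ha b hb'
  linarith

/-- resolvents -/
theorem exists_resolvent [CompleteSpace X] {T : X → X} {K : Set X} (hK : Inv T K) {D : ℝ}
    (hD : ∀ a ∈ K, ∀ b ∈ K, ‖a - b‖ ≤ D)
    (hT : ∀ a ∈ K, ∀ b ∈ K, ‖T a - T b‖ ≤ ‖a - b‖) {η : ℝ} (hη : 0 < η) :
    ∃ J : X → X, MapsTo J K K ∧ (∀ a ∈ K, ∀ b ∈ K, ‖J a - J b‖ ≤ ‖a - b‖) ∧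
      (∀ w ∈ K, ‖J w - T (J w)‖ ≤ η) ∧
      ∀ ε, 0 < ε → ∃ δ, 0 < δ ∧ ∀ f ∈ K, ‖f - T f‖ ≤ δ → ‖J f - f‖ ≤ ε := by
  classical
  obtain ⟨⟨x₀, hx₀⟩, hcl, hcv, hmaps⟩ := hK
  have hD0 : 0 ≤ D := (norm_nonneg _).trans (hD x₀ hx₀ x₀ hx₀)
  set t : ℝ := min (1 / 2) (η / (D + 1)) with ht
  have ht0 : 0 < t := lt_min (by norm_num) (by positivity)
  have ht1 : t < 1 := (min_le_left _ _).trans_lt (by norm_num)
  have htD : t * D ≤ η := by
    have h1 : t ≤ η / (D + 1) := min_le_right _ _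
    rw [le_div_iff₀ (by positivity)] at h1
    nlinarith
  have hex : ∀ w ∈ K, ∃ y ∈ K, t • w + (1 - t) • T y = y := by
    intro w hw
    have hm : MapsTo (fun y => t • w + (1 - t) • T y) K K := fun y hy =>
      hcv hw (hmaps hy) ht0.le (by linarith) (by ring)
    have hc : ContractingWith ⟨1 - t, by linarith⟩ (hm.restrict _ K K) := by
      refine ⟨NNReal.coe_lt_coe.1 (show 1 - t < 1 by linarith), LipschitzWith.of_dist_le_mul ?_⟩
      rintro ⟨a, ha⟩ ⟨b, hb⟩
      show dist (t • w + (1 - t) • T a) (t • w + (1 - t) • T b) ≤ (1 - t) * dist a b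
      rw [dist_eq_norm, dist_eq_norm, add_sub_add_left_eq_sub, ← smul_sub, norm_smul,
        Real.norm_of_nonneg (by linarith)]
      exact mul_le_mul_of_nonneg_left (hT a ha b hb) (by linarith)
    obtain ⟨y, hy, hfix, -⟩ := hc.exists_fixedPoint' hcl.isComplete hm hx₀ (edist_ne_top _ _)
    exact ⟨y, hy, hfix⟩
  choose! J hJK hJ using hex
  refine ⟨J, hJK, fun a ha b hb => ?_, fun w hw => ?_, fun ε hε =>
    ⟨t * ε, mul_pos ht0 hε, fun f hf hfδ => ?_⟩⟩
  · have h1 : J a - J b = t • (a - b) + (1 - t) • (T (J a) - T (J b)) := by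
      conv_lhs => rw [← hJ a ha, ← hJ b hb]
      rw [smul_sub, smul_sub]; abel
    have h2 := norm_add_le (t • (a - b)) ((1 - t) • (T (J a) - T (J b)))
    rw [← h1, norm_smul, norm_smul, Real.norm_of_nonneg ht0.le,
      Real.norm_of_nonneg (by linarith)] at h2
    have h3 := mul_le_mul_of_nonneg_left (hT _ (hJK a ha) _ (hJK b hb))
      (by linarith : 0 ≤ 1 - t)
    have h4 : t * ‖J a - J b‖ ≤ t * ‖a - b‖ := by linarith
    exact le_of_mul_le_mul_left h4 ht0
  · have h1 : J w - T (J w) = t • (w - T (J w)) := by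
      calc J w - T (J w) = (t • w + (1 - t) • T (J w)) - T (J w) := by rw [hJ w hw]
        _ = t • (w - T (J w)) := by rw [smul_sub, sub_smul, one_smul]; abel
    rw [h1, norm_smul, Real.norm_of_nonneg ht0.le]
    exact (mul_le_mul_of_nonneg_left (hD _ hw _ (hmaps (hJK w hw))) ht0.le).trans htD
  · have h1 : J f - f = (1 - t) • (T (J f) - f) := by
      conv_lhs => rw [← hJ f hf]
      rw [smul_sub, sub_smul (1 : ℝ) t f, one_smul]; abel
    have h2 : ‖J f - f‖ = (1 - t) * ‖T (J f) - f‖ := by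
      rw [h1, norm_smul, Real.norm_of_nonneg (by linarith)]
    have h3 := norm_sub_le_norm_sub_add_norm_sub (T (J f)) (T f) f
    have h4 := hT _ (hJK f hf) _ hf
    rw [norm_sub_rev (T f) f] at h3
    have h5 := norm_nonneg (f - T f)
    have h6 : ‖J f - f‖ ≤ (1 - t) * (‖J f - f‖ + ‖f - T f‖) := by
      rw [h2]
      refine mul_le_mul_of_nonneg_left ?_ (by linarith)
      rw [← h2]; linarith
    have h7 : t * ‖J f - f‖ ≤ t * ε := by nlinarith
    exact le_of_mul_le_mul_left h7 ht0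

end Vale.Agent.P079
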