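import Vale.Agent.P079.Chain
import Vale.Agent.P079.Minimal

/-! The budget system attached to a fixed point free nonexpansive map, and the main theorem. -/

namespace Vale.Agent.P079

open Set Filter Topology

variable {X : Type*} [NormedAddCommGroup X] [NormedSpace ℝ X]

theorem exists_center {K : Set X} (hne : K.Nonempty) (hcv : Convex ℝ K) (F : List X)
    (hF : ∀ x ∈ F, x ∈ K) :
    ∃ c ∈ K, ∃ m : ℝ, 0 < m ∧ ∀ (ψ : StrongDual ℝ X) (b : ℝ), (∀ y ∈ K, 0 ≤ b + ψ y) →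
      ∀ x ∈ F, b + ψ x ≤ m * (b + ψ c) := by
  induction F with
  | nil =>
    obtain ⟨x₀, hx₀⟩ := hne
    exact ⟨x₀, hx₀, 1, one_pos, by simp⟩
  | cons a F ih =>
    obtain ⟨c, hc, m, hm, h⟩ := ih fun x hx => hF x (List.mem_cons_of_mem _ hx)
    have ha : a ∈ K := hF a List.mem_cons_self
    refine ⟨(1 / 2 : ℝ) • a + (1 / 2 : ℝ) • c,
      hcv ha hc (by norm_num) (by norm_num) (by norm_num), 2 * (m + 1), by positivity,
      fun ψ b hb x hx => ?_⟩
    have h1 := hb a ha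
    have h2 := hb c hc
    have h3 := mul_nonneg hm.le h1
    have h4 := mul_nonneg hm.le h2
    rw [map_add, map_smul, map_smul, smul_eq_mul, smul_eq_mul]
    rcases List.mem_cons.1 hx with rfl | hx
    · nlinarith
    · have := h ψ b hb x hx
      nlinarith

theorem exists_norming {T : X → X} {K : Set X} (hne : K.Nonempty) (hcv : Convex ℝ K) {D : ℝ}
    (hD : ∀ a ∈ K, ∀ b ∈ K, ‖a - b‖ ≤ D)
    (hGK : ∀ x ∈ K, ∀ ε, 0 < ε → ∃ η, 0 < η ∧ ∀ f ∈ K, ‖f - T f‖ ≤ η → D - ε ≤ ‖f - x‖)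
    (F : List X) (hF : ∀ x ∈ F, x ∈ K) {ε : ℝ} (hε : 0 < ε) :
    ∃ η, 0 < η ∧ ∀ f ∈ K, ‖f - T f‖ ≤ η →
      ∃ ψ : StrongDual ℝ X, ‖ψ‖ ≤ 1 ∧ ∀ x ∈ F, D - ε ≤ ψ (f - x) := by
  obtain ⟨c, hc, m, hm, h⟩ := exists_center hne hcv F hF
  obtain ⟨η, hη, h2⟩ := hGK c hc (ε / m) (div_pos hε hm)
  refine ⟨η, hη, fun f hf hfη => ?_⟩
  obtain ⟨ψ, hψ1, hψ2⟩ := exists_dual_vector'' ℝ (f - c)
  have hψ3 : ψ (f - c) = ‖f - c‖ := by simpa using hψ2
  refine ⟨ψ, hψ1, fun x hx => ?_⟩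
  have h3 := h ψ (D - ψ f) (fun y hy => by
    have a1 := (abs_le.1 (apply_le_norm hψ1 (f - y))).2
    have a2 := hD f hf y hy
    rw [map_sub] at a1
    linarith) x hx
  have h4 := h2 f hf hfη
  rw [map_sub] at hψ3 ⊢
  have h5 : m * (D - ψ f + ψ c) ≤ m * (ε / m) :=
    mul_le_mul_of_nonneg_left (by linarith) hm.le
  have h6 : m * (ε / m) = ε := by field_simp
  linarith

/-- states: Lipschitz self-maps whose displacement on approximate fixed points is controlled -/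
structure St (T : X → X) (K : Set X) (D : ℝ) where
  Φ : X → X
  p : ℝ
  pos : 0 < p
  maps : MapsTo Φ K K
  lip : ∀ a ∈ K, ∀ b ∈ K, ‖Φ a - Φ b‖ ≤ p * ‖a - b‖
  disp : ∀ ε, 0 < ε → ∃ η, 0 < η ∧ ∀ f ∈ K, ‖f - T f‖ ≤ η → ‖Φ f - f‖ ≤ (1 - p) * D + ε

variable {T : X → X} {K : Set X} {D : ℝ}

/-- the identity state -/
def St.one (T : X → X) (K : Set X) (D : ℝ) : St T K D where
  Φ := fun x => x
  p := 1
  pos := one_pos
  maps := fun _ h => h
  lip := fun a _ b _ => by simp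
  disp := fun ε hε => ⟨1, one_pos, fun f _ _ => by simpa using hε.le⟩

/-- composition of states -/
def St.comp (σ τ : St T K D) : St T K D where
  Φ := fun x => σ.Φ (τ.Φ x)
  p := σ.p * τ.p
  pos := mul_pos σ.pos τ.pos
  maps := fun _ h => σ.maps (τ.maps h)
  lip := fun a ha b hb => by
    refine (σ.lip _ (τ.maps ha) _ (τ.maps hb)).trans ?_
    rw [mul_assoc]
    exact mul_le_mul_of_nonneg_left (τ.lip a ha b hb) σ.pos.le
  disp := fun ε hε => by
    have hp := σ.pos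
    obtain ⟨η₁, hη₁, h1⟩ := σ.disp (ε / 2) (half_pos hε)
    obtain ⟨η₂, hη₂, h2⟩ := τ.disp (ε / 2 / σ.p) (by positivity)
    refine ⟨min η₁ η₂, lt_min hη₁ hη₂, fun f hf hfη => ?_⟩
    have a1 := h1 f hf (hfη.trans (min_le_left _ _))
    have a2 := h2 f hf (hfη.trans (min_le_right _ _))
    have a3 := σ.lip _ (τ.maps hf) _ hf
    have a4 := norm_sub_le_norm_sub_add_norm_sub (σ.Φ (τ.Φ f)) (σ.Φ f) f
    have a5 := mul_le_mul_of_nonneg_left a2 hp.le
    have a6 : σ.p * ((1 - τ.p) * D + ε / 2 / σ.p) = σ.p * ((1 - τ.p) * D) + ε / 2 := by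
      field_simp
    linarith

instance St.pre : Preorder (St T K D) where
  le σ σ' := ∃ τ : St T K D, σ' = σ.comp τ
  le_refl σ := ⟨St.one T K D, by cases σ; simp [St.comp, St.one]⟩
  le_trans := by
    rintro a b c ⟨τ, rfl⟩ ⟨τ', rfl⟩
    exact ⟨τ.comp τ', by simp [St.comp, mul_assoc]⟩

theorem fixed_point_ext [CompleteSpace X]
    (hX : Function.Surjective (NormedSpace.inclusionInDoubleDual ℝ X))
    {T : X → X} {C : Set X} (hC : Inv T C) (hb : Bornology.IsBounded C)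
    (hT : ∀ a ∈ C, ∀ b ∈ C, ‖T a - T b‖ ≤ ‖a - b‖) : ∃ x ∈ C, T x = x := by
  by_contra hcon
  push Not at hcon
  obtain ⟨K, hKC, hK, hmin⟩ := exists_minimal_inv hX hC hb
  have hTK : ∀ a ∈ K, ∀ b ∈ K, ‖T a - T b‖ ≤ ‖a - b‖ := fun a ha b hb' =>
    hT a (hKC ha) b (hKC hb')
  have hbK : Bornology.IsBounded K := hb.subset hKC
  have hsep : TopologicalSpace.IsSeparable K := by
    obtain ⟨A, hA, hA', hA''⟩ := exists_separable_inv hK hTK
    rwa [hmin A hA hA'] at hA''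
  set D := Metric.diam K with hDdef
  have hD : ∀ a ∈ K, ∀ b ∈ K, ‖a - b‖ ≤ D := fun a ha b hb' => by
    rw [← dist_eq_norm]; exact Metric.dist_le_diam_of_mem hbK ha hb'
  have hGK : ∀ x ∈ K, ∀ ε, 0 < ε → ∃ η, 0 < η ∧ ∀ f ∈ K, ‖f - T f‖ ≤ η → D - ε ≤ ‖f - x‖ :=
    fun x hx ε hε => goebel_karlovitz hX hK hbK hmin hTK hx hε
  obtain ⟨hne, hcl, hcv, hmaps⟩ := id hK
  obtain ⟨x₀, hx₀⟩ := id hne
  have hD0 : 0 < D := by
    have h1 := hD _ (hmaps hx₀) _ hx₀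
    have h2 : 0 < ‖T x₀ - x₀‖ := norm_pos_iff.2 (sub_ne_zero.2 (hcon x₀ (hKC hx₀)))
    linarith
  choose J hJ1 _ hJ3 _ using fun n : ℕ =>
    exists_resolvent hK hD hTK (η := 1 / ((n : ℝ) + 1)) Nat.one_div_pos_of_nat
  set y : ℕ → X := fun n => J n x₀ with hy
  have hyK : ∀ n, y n ∈ K := fun n => hJ1 n hx₀
  have hyT : ∀ η, 0 < η → ∀ᶠ n in (hyperfilter ℕ : Filter ℕ), ‖y n - T (y n)‖ ≤ η := by
    intro η hη
    refine Nat.hyperfilter_le_atTop ?_
    have h0 : ∀ᶠ n : ℕ in atTop, 1 / ((n : ℝ) + 1) < η :=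
      (tendsto_order.1 tendsto_one_div_add_atTop_nhds_zero_nat).2 _ hη
    filter_upwards [h0] with n hn
    exact (hJ3 n x₀ hx₀).trans hn.le
  obtain ⟨M, hM⟩ := hbK.exists_norm_le
  choose Z hZ using fun σ : St T K D =>
    exists_wlim hX (hyperfilter ℕ) (fun n => σ.Φ (y n)) M fun n => hM _ (σ.maps (hyK n))
  have hZK : ∀ σ, Z σ ∈ K := fun σ =>
    wlim_mem (hZ σ) hcl hcv (Eventually.of_forall fun n => σ.maps (hyK n))
  refine no_system hX (fun σ : St T K D => D * σ.p) Z (St.one T K D)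
    (mul_pos hD0 (St.one T K D).pos) (hsep.mono (range_subset_iff.2 hZK)) ?_ ?_ ?_
  · intro σ s hs hsb
    have hp := σ.pos
    have hDp : 0 < D * σ.p := mul_pos hD0 hp
    set q : ℝ := (D * σ.p - s) / (D * σ.p) with hq
    have hq0 : 0 < q := div_pos (by linarith) hDp
    have hq1 : q < 1 := by rw [hq, div_lt_one hDp]; linarith
    let τ : St T K D :=
      { Φ := fun w => q • w + (1 - q) • x₀
        p := q
        pos := hq0
        maps := fun w hw => hcv hw hx₀ hq0.le (by linarith) (by ring)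
        lip := fun a _ b _ => by
          rw [add_sub_add_right_eq_sub, ← smul_sub, norm_smul, Real.norm_of_nonneg hq0.le]
        disp := fun ε hε => ⟨1, one_pos, fun f hf _ => by
          have h1 : q • f + (1 - q) • x₀ - f = (1 - q) • (x₀ - f) := by
            rw [smul_sub, sub_smul (1 : ℝ) q f, one_smul]; abel
          rw [h1, norm_smul, Real.norm_of_nonneg (by linarith)]
          have h2 := mul_le_mul_of_nonneg_left (hD _ hx₀ _ hf) (by linarith : 0 ≤ 1 - q)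
          linarith⟩ }
    refine ⟨σ.comp τ, ⟨τ, rfl⟩, ?_⟩
    show D * (σ.p * q) = D * σ.p - s
    rw [hq]
    field_simp
  · rintro σ _ ⟨τ, rfl⟩
    have hp := σ.pos
    refine wlim_norm_le (hZ _) (hZ _) fun ε hε => ?_
    obtain ⟨η, hη, h1⟩ := τ.disp (ε / σ.p) (by positivity)
    filter_upwards [hyT η hη] with n hn
    have a2 := h1 _ (hyK n) hn
    have a3 := σ.lip _ (τ.maps (hyK n)) _ (hyK n)
    have a5 := mul_le_mul_of_nonneg_left a2 hp.le
    have a6 : σ.p * ((1 - τ.p) * D + ε / σ.p) = σ.p * ((1 - τ.p) * D) + ε := by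
      field_simp
    show ‖σ.Φ (τ.Φ (y n)) - σ.Φ (y n)‖ ≤ D * σ.p - D * (σ.p * τ.p) + ε
    linarith
  · intro σ G ε hε
    have hp := σ.pos
    obtain ⟨η₁, hη₁, h1⟩ := exists_norming hne hcv hD hGK
      (Z σ :: (G.map (fun t => Z t.1) ++ G.map (fun t => Z t.2))) (by
        intro x hx
        simp only [List.mem_cons, List.mem_append, List.mem_map] at hx
        rcases hx with rfl | ⟨t, _, rfl⟩ | ⟨t, _, rfl⟩ <;> exact hZK _) (half_pos hε)
    obtain ⟨η₂, hη₂, h2⟩ := σ.disp (ε / 2) (half_pos hε)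
    obtain ⟨R, hR1, hR2, hR3, hR4⟩ := exists_resolvent hK hD hTK (lt_min hη₁ hη₂)
    let ρ : St T K D :=
      { Φ := R
        p := 1
        pos := one_pos
        maps := hR1
        lip := fun a ha b hb' => by rw [one_mul]; exact hR2 a ha b hb'
        disp := fun ε hε => by
          obtain ⟨δ, hδ, h⟩ := hR4 ε hε
          exact ⟨δ, hδ, fun f hf hfδ => by simpa using h f hf hfδ⟩ }
    refine ⟨σ.comp ρ, ⟨ρ, rfl⟩, by show D * (σ.p * 1) = D * σ.p; rw [mul_one], ?_⟩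
    rintro _ ⟨τ, rfl⟩
    have hfK : R (τ.Φ x₀) ∈ K := hR1 (τ.maps hx₀)
    have hfη := hR3 _ (τ.maps hx₀)
    set f := R (τ.Φ x₀) with hf
    obtain ⟨ψ, hψ1, hψ2⟩ := h1 f hfK (hfη.trans (min_le_left _ _))
    have b1 := h2 f hfK (hfη.trans (min_le_right _ _))
    refine ⟨ψ, hψ1, fun t ht => ?_, ?_⟩
    · have c1 := hψ2 (Z t.1) (List.mem_cons_of_mem _
        (List.mem_append_left _ (List.mem_map.2 ⟨t, ht, rfl⟩)))
      have c2 := (abs_le.1 (apply_le_norm hψ1 (f - Z t.2))).2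
      have c3 := hD f hfK _ (hZK t.2)
      rw [map_sub] at c1 c2 ⊢
      linarith
    · have c1 := hψ2 (Z σ) List.mem_cons_self
      have c2 : ‖Z ((σ.comp ρ).comp τ) - σ.Φ f‖ ≤ D * (σ.p * 1 * τ.p) := by
        refine wlim_norm_le (x' := fun _ => σ.Φ f) (hZ _) (fun _ => tendsto_const_nhds)
          fun δ hδ => Eventually.of_forall fun n => ?_
        have d1 := ((σ.comp ρ).comp τ).lip _ (hyK n) _ hx₀
        have d2 := mul_le_mul_of_nonneg_left (hD _ (hyK n) _ hx₀) ((σ.comp ρ).comp τ).pos.le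
        have d3 : ((σ.comp ρ).comp τ).p = σ.p * 1 * τ.p := rfl
        have d4 : ((σ.comp ρ).comp τ).Φ x₀ = σ.Φ f := rfl
        rw [d3] at d1 d2
        rw [d4] at d1
        linarith
      have c3 := (abs_le.1 (apply_le_norm hψ1 (Z ((σ.comp ρ).comp τ) - σ.Φ f))).1
      have c4 := (abs_le.1 (apply_le_norm hψ1 (σ.Φ f - f))).1
      rw [map_sub] at c1 c3 c4 ⊢
      show D * σ.p - D * (σ.p * 1 * τ.p) - ε ≤ _
      linarith

theorem fixed_point [CompleteSpace X]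
    (hX : Function.Surjective (NormedSpace.inclusionInDoubleDual ℝ X))
    (C : Set X) (hne : C.Nonempty) (hcl : IsClosed C) (hb : Bornology.IsBounded C)
    (hcv : Convex ℝ C) (T : C → C) (hT : ∀ a b : C, ‖(T a : X) - T b‖ ≤ ‖(a : X) - b‖) :
    ∃ x : C, T x = x := by
  classical
  let T' : X → X := fun x => if h : x ∈ C then (T ⟨x, h⟩ : X) else x
  have hT' : ∀ x (h : x ∈ C), T' x = T ⟨x, h⟩ := fun x h => dif_pos h
  obtain ⟨x, hx, hfix⟩ := fixed_point_ext hX (T := T') (C := C)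
    ⟨hne, hcl, hcv, fun x hx => by rw [hT' x hx]; exact (T ⟨x, hx⟩).2⟩ hb
    (fun a ha b hb' => by rw [hT' a ha, hT' b hb']; exact hT ⟨a, ha⟩ ⟨b, hb'⟩)
  refine ⟨⟨x, hx⟩, Subtype.ext ?_⟩
  rw [← hT' x hx]
  exact hfix

end Vale.Agent.P079
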